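import Vale.Agent.P064.Or.Fin

/-!
# P064: the second Kahn-Kalai conjecture for all graphs with large expectation threshold

For every `n ≥ 3` and every graph `H` with at least one edge and at most `n` vertices, put
`ε = log (1 / p_E(n,H)) / log n`, i.e. `p_E(n,H) = n^(-ε)`.  Then
`p̃_E(n,H) ≤ C (log n)^(min 1 (2ε)) p_E(n,H)` and
`p_c(n,H) ≤ C (log n) (log n)^(min 1 (2ε)) p_E(n,H)`.
In particular the second Kahn-Kalai conjecture holds, with constant `C exp (2A)`, for all `H` with
`p_E(n,H) ≥ n^(-A / log log n)`.
-/

namespace Vale.Agent.Results.P064.DenseRange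

open VP064

theorem result :
    ∃ C : ℝ, 0 < C ∧ ∀ n : ℕ, 3 ≤ n → ∀ (W : Type) [Fintype W] (H : SimpleGraph W),
      Fintype.card W ≤ n → H ≠ ⊥ →
        (pEt n H ≤
            C * Real.log n ^ (min 1 (2 * (Real.log (1 / pE n H) / Real.log n))) * pE n H ∧
          pC n H ≤
            C * Real.log n * Real.log n ^ (min 1 (2 * (Real.log (1 / pE n H) / Real.log n))) *
              pE n H) ∧
        (∀ A : ℝ, (n : ℝ) ^ (-(A / Real.log (Real.log n))) ≤ pE n H →
          pEt n H ≤ C * Real.exp (2 * A) * pE n H ∧
          pC n H ≤ C * Real.exp (2 * A) * Real.log n * pE n H) := by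
  refine ⟨192 * CC + 2688, by have := CC_pos; positivity, ?_⟩
  intro n hn W _ H hW hH
  have hC := CC_pos
  obtain ⟨h1, h2⟩ := orient_main H hn hW hH
  have h3 := log_compare H (by omega : 2 ≤ n) hW hH
  have h4 := log_sq H (by omega : 2 ≤ n) hW hH
  obtain ⟨j⟩ := exists_emb hW
  obtain ⟨p0, p1, hp⟩ := pE_mem H hW
  have hp0 : 0 < pE n H := p_pos H j hH p0 hp
  set p := pE n H with hpdef
  have hn3 : (3 : ℝ) ≤ n := by exact_mod_cast hn
  have hlogn : 1 < Real.log n := by
    rw [Real.lt_log_iff_exp_lt (by linarith)]
    have := Real.exp_one_lt_d9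
    linarith
  have hlog0 : 0 < Real.log n := by linarith
  have hll : 0 < Real.log (Real.log n) := Real.log_pos hlogn
  have heq : 2 * Real.log (1 / p) / Real.log n = 2 * (Real.log (1 / p) / Real.log n) := by ring
  rw [heq] at h1 h2
  set t : ℝ := 2 * (Real.log (1 / p) / Real.log n) with ht
  have hx0 : 0 < Real.log n ^ t := Real.rpow_pos_of_pos hlog0 t
  -- the two bounds with exponent `t`
  have a1 : pEt n H ≤ (192 * CC + 2688) * Real.log n ^ t * p := by
    refine h1.trans ?_
    have : CC ≤ 192 * CC + 2688 := by linarith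
    gcongr
  have a2 : pC n H ≤ (192 * CC + 2688) * Real.log n * Real.log n ^ t * p := by
    refine h2.trans ?_
    calc 192 * Real.log n * (CC * Real.log n ^ t * p)
        = (192 * CC) * Real.log n * Real.log n ^ t * p := by ring
      _ ≤ _ := by
        have : 192 * CC ≤ 192 * CC + 2688 := by linarith
        gcongr
  -- the two bounds with exponent `1`
  have b1 : pEt n H ≤ (192 * CC + 2688) * Real.log n ^ (1 : ℝ) * p := by
    refine h3.trans ?_
    rw [Real.rpow_one]
    have : (14 : ℝ) ≤ 192 * CC + 2688 := by linarith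
    gcongr
  have b2 : pC n H ≤ (192 * CC + 2688) * Real.log n * Real.log n ^ (1 : ℝ) * p := by
    refine h4.trans ?_
    rw [Real.rpow_one]
    calc 2688 * Real.log n ^ 2 * p = 2688 * Real.log n * Real.log n * p := by ring
      _ ≤ _ := by
        have : (2688 : ℝ) ≤ 192 * CC + 2688 := by linarith
        gcongr
  refine ⟨⟨?_, ?_⟩, ?_⟩
  · rcases min_choice 1 t with h | h
    · rw [h]; exact b1
    · rw [h]; exact a1
  · rcases min_choice 1 t with h | h
    · rw [h]; exact b2
    · rw [h]; exact a2
  · intro A hA
    have hn0 : (0 : ℝ) < n := by linarith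
    have h5 : Real.log (1 / p) ≤ A / Real.log (Real.log n) * Real.log n := by
      have h6 : -(A / Real.log (Real.log n)) * Real.log n ≤ Real.log p := by
        rw [← Real.log_rpow hn0]
        exact Real.log_le_log (Real.rpow_pos_of_pos hn0 _) hA
      rw [one_div, Real.log_inv]
      linarith
    have h7 : t ≤ 2 * (A / Real.log (Real.log n)) := by
      rw [ht]
      have : Real.log (1 / p) / Real.log n ≤ A / Real.log (Real.log n) := by
        rw [div_le_iff₀ hlog0]
        exact h5
      linarith
    have h8 : Real.log n ^ t ≤ Real.exp (2 * A) := by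
      rw [Real.rpow_def_of_pos hlog0]
      apply Real.exp_le_exp.mpr
      calc Real.log (Real.log n) * t
          ≤ Real.log (Real.log n) * (2 * (A / Real.log (Real.log n))) := by gcongr
        _ = 2 * A := by field_simp
    constructor
    · refine a1.trans ?_
      gcongr
    · refine a2.trans ?_
      calc (192 * CC + 2688) * Real.log n * Real.log n ^ t * p
          ≤ (192 * CC + 2688) * Real.log n * Real.exp (2 * A) * p := by gcongr
        _ = _ := by ring

end Vale.Agent.Results.P064.DenseRange
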