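import Vale.Agent.P064.PcBound

/-!
# P064: the second Kahn-Kalai conjecture, with one logarithm to spare

For every `n ≥ 2` and every graph `H` with at least one edge and at most `n` vertices,
`p̃_E(n,H) ≤ 14 log n · p_E(n,H)` and `p_c(n,H) ≤ 2688 (log n)^2 · p_E(n,H)`.
The bounds known before were `O(log^2 n)` and `O(log^3 n)`.
-/

namespace Vale.Agent.Results.P064.LogSq

open VP064

theorem result :
    ∀ n : ℕ, 2 ≤ n → ∀ (W : Type) [Fintype W] (H : SimpleGraph W),
      Fintype.card W ≤ n → H ≠ ⊥ →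
        pEt n H ≤ 14 * Real.log n * pE n H ∧
        pC n H ≤ 2688 * Real.log n ^ 2 * pE n H := by
  intro n hn W _ H hW hH
  exact ⟨log_compare H hn hW hH, log_sq H hn hW hH⟩

end Vale.Agent.Results.P064.LogSq
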